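import Vale.Agent.P181.R2.H959.FDefs
import Mathlib.LinearAlgebra.Vandermonde

set_option autoImplicit false

open scoped TensorProduct

namespace Vale.Agent.P181.FR

open Vale.Agent.P181 Vale.Agent.P181.H280 Vale.Agent.P181.H54 MvPolynomial

theorem MP_mul {B m a a' : ℕ} {G H : (Fin B → Fin m → ℂ) → ℂ} (hG : G ∈ MP B m a)
    (hH : H ∈ MP B m a') : G * H ∈ MP B m (a + a') := by
  have h1 : G * H ∈ MP B m a * MP B m a' := Submodule.mul_mem_mul hG hH
  refine (?_ : MP B m a * MP B m a' ≤ MP B m (a + a')) h1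
  unfold MP
  rw [Submodule.span_mul_span]
  apply Submodule.span_mono
  rintro _ ⟨G1, ⟨q, hq, rfl⟩, H1, ⟨q', hq', rfl⟩, rfl⟩
  refine ⟨fun j => q j * q' j, fun j => (hq j).mul (hq' j), ?_⟩
  funext p
  simp only [Pi.mul_apply, map_mul, Finset.prod_mul_distrib]

theorem MP_coord {B m : ℕ} (c : Fin B → Fin m) :
    (fun p : Fin B → Fin m → ℂ => ∏ j, p j (c j)) ∈ MP B m 1 := by
  apply Submodule.subset_span
  refine ⟨fun j => X (c j), fun j => isHomogeneous_X ℂ (c j), ?_⟩
  funext p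
  simp only [eval_X]

theorem MP_det {i m : ℕ} (c : Fin i → Fin m) :
    (fun p : Fin i → Fin m → ℂ => Matrix.det (Matrix.of fun j k : Fin i => p j (c k))) ∈ MP i m 1 := by
  have h : (fun p : Fin i → Fin m → ℂ => Matrix.det (Matrix.of fun j k : Fin i => p j (c k))) =
      ∑ σ : Equiv.Perm (Fin i), ((Equiv.Perm.sign σ : ℤ) : ℂ) •
        (fun p : Fin i → Fin m → ℂ => ∏ j, p j (c (σ j))) := by
    funext p
    rw [← Matrix.det_transpose, Matrix.det_apply', Finset.sum_apply]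
    refine Finset.sum_congr rfl (fun σ _ => ?_)
    simp only [Matrix.transpose_apply, Matrix.of_apply, Pi.smul_apply, smul_eq_mul]
  rw [h]
  exact Submodule.sum_mem _ (fun σ _ => Submodule.smul_mem _ _ (MP_coord (fun j => c (σ j))))

theorem MP_proj {i m : ℕ} (x y : Fin m) :
    (fun p : Fin i → Fin m → ℂ => ∏ j : Fin i, ∏ k ∈ Finset.Ioi j, (p k x * p j y - p j x * p k y)) ∈ MP i m (i - 1) := by
  have h : (fun p : Fin i → Fin m → ℂ => ∏ j : Fin i, ∏ k ∈ Finset.Ioi j,
      (p k x * p j y - p j x * p k y)) =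
      ∑ σ : Equiv.Perm (Fin i), ((Equiv.Perm.sign σ : ℤ) : ℂ) •
        (fun p : Fin i → Fin m → ℂ => ∏ j, (p j x ^ ((σ j : Fin i) : ℕ) * p j y ^ ((σ j).rev : ℕ))) := by
    funext p
    rw [← Matrix.det_projVandermonde (fun k => p k x) (fun k => p k y), ← Matrix.det_transpose,
      Matrix.det_apply', Finset.sum_apply]
    refine Finset.sum_congr rfl (fun σ _ => ?_)
    simp only [Matrix.transpose_apply, Matrix.projVandermonde_apply, Pi.smul_apply, smul_eq_mul]
  rw [h]
  refine Submodule.sum_mem _ (fun σ _ => Submodule.smul_mem _ _ (Submodule.subset_span ?_))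
  refine ⟨fun j => X x ^ ((σ j : Fin i) : ℕ) * X y ^ ((σ j).rev : ℕ), fun j => ?_, ?_⟩
  · have h1 := ((isHomogeneous_X ℂ x).pow ((σ j : Fin i) : ℕ)).mul
      ((isHomogeneous_X ℂ y).pow (((σ j).rev : Fin i) : ℕ))
    have h2 : 1 * ((σ j : Fin i) : ℕ) + 1 * (((σ j).rev : Fin i) : ℕ) = i - 1 := by
      rw [Fin.val_rev]
      have := (σ j).isLt
      omega
    rwa [h2] at h1
  · funext p
    simp only [map_mul, map_pow, eval_X]

end Vale.Agent.P181.FR
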